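import Mathlib

/-! P038 (Seymour's second neighbourhood conjecture): definitions. -/

namespace Vale.Agent.P038P

variable {V W : Type*}

/-- `D u v` means that there is an arc from `u` to `v`; `D` is an oriented graph if it has no
loops and no pair of opposite arcs. -/
def Oriented (D : V → V → Prop) : Prop := (∀ u, ¬ D u u) ∧ ∀ u v, D u v → ¬ D v u

open Classical in
/-- The first out-neighbourhood. -/
noncomputable def N1 [Fintype V] (D : V → V → Prop) (v : V) : Finset V :=
  Finset.univ.filter fun u => D v u

open Classical in
/-- The second out-neighbourhood: the vertices at directed distance exactly two. -/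
noncomputable def N2 [Fintype V] (D : V → V → Prop) (v : V) : Finset V :=
  Finset.univ.filter fun w => w ≠ v ∧ ¬ D v w ∧ ∃ u, D v u ∧ D u w

/-- The conclusion of the conjecture: some vertex has a second out-neighbourhood at least as
large as its first out-neighbourhood. -/
def HasSeymourVertex [Fintype V] (D : V → V → Prop) : Prop :=
  ∃ v, (N1 D v).card ≤ (N2 D v).card

/-- The direct (tensor) product of two digraphs. -/
def direct (D : V → V → Prop) (E : W → W → Prop) (p q : V × W) : Prop :=
  D p.1 q.1 ∧ E p.2 q.2

/-- The Cartesian product of two digraphs. -/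
def cartesian (D : V → V → Prop) (E : W → W → Prop) (p q : V × W) : Prop :=
  (D p.1 q.1 ∧ p.2 = q.2) ∨ (p.1 = q.1 ∧ E p.2 q.2)

/-- The strong product of two digraphs. -/
def strong (D : V → V → Prop) (E : W → W → Prop) (p q : V × W) : Prop :=
  p ≠ q ∧ (p.1 = q.1 ∨ D p.1 q.1) ∧ (p.2 = q.2 ∨ E p.2 q.2)

end Vale.Agent.P038P
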