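import Vale.Agent.P038P.Defs

/-! P038: further definitions for the combined statement. -/

namespace Vale.Agent.P038P

open Classical in
/-- The number of arcs with both ends in `S`. -/
noncomputable def arcsIn {V : Type*} (D : V → V → Prop) (S : Finset V) : ℕ :=
  ((S ×ˢ S).filter fun p => D p.1 p.2).card

open Classical in
/-- The number of out-neighbours of `v` which are adjacent (by an arc in either direction) to
`x`. -/
noncomputable def innerDegree {V : Type*} [Fintype V] (D : V → V → Prop) (v x : V) : ℕ :=
  (Finset.univ.filter fun y => D v y ∧ (D x y ∨ D y x)).card

end Vale.Agent.P038P
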