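import Vale.Agent.P038P.Defs

/-! P038: second neighbourhoods in products of oriented graphs. -/

namespace Vale.Agent.P038P

open Finset Classical

variable {V W : Type*} [Fintype V] [Fintype W]

/-- The ends of the walks of length two. -/
noncomputable def Wk (D : V → V → Prop) (u : V) : Finset V :=
  univ.filter fun w => ∃ x, D u x ∧ D x w

theorem mem_N1 {D : V → V → Prop} {v u : V} : u ∈ N1 D v ↔ D v u := by
  unfold N1; rw [mem_filter]; exact ⟨fun h => h.2, fun h => ⟨mem_univ _, h⟩⟩

theorem mem_N2 {D : V → V → Prop} {v w : V} :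
    w ∈ N2 D v ↔ w ≠ v ∧ ¬ D v w ∧ ∃ u, D v u ∧ D u w := by
  unfold N2; rw [mem_filter]; exact ⟨fun h => h.2, fun h => ⟨mem_univ _, h⟩⟩

theorem mem_Wk {D : V → V → Prop} {v w : V} :
    w ∈ Wk D v ↔ ∃ u, D v u ∧ D u w := by
  unfold Wk; rw [mem_filter]; exact ⟨fun h => h.2, fun h => ⟨mem_univ _, h⟩⟩

theorem hmid {F : V → V → Prop} (hF : Oriented F) {s t : V} (ht : t ∈ N2 F s) :
    ∃ x, F s x ∧ F x t ∧ s ≠ x ∧ x ≠ t := by
  obtain ⟨_, _, x, h3, h4⟩ := mem_N2.1 ht
  refine ⟨x, h3, h4, ?_, ?_⟩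
  · rintro rfl; exact hF.1 _ h3
  · rintro rfl; exact hF.1 _ h4

theorem hin {F : V → V → Prop} {s t : V} (ht : t ∈ insert s (N1 F s)) : s = t ∨ F s t := by
  rcases mem_insert.1 ht with h | h
  · exact Or.inl h.symm
  · exact Or.inr (mem_N1.1 h)

theorem hcard {F : V → V → Prop} (hF : Oriented F) (s : V) :
    (insert s (N1 F s)).card = (N1 F s).card + 1 ∧
      (insert s (N1 F s) ∪ N2 F s).card = (N1 F s).card + 1 + (N2 F s).card := by
  have e1 : (insert s (N1 F s)).card = (N1 F s).card + 1 := by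
    rw [card_insert_of_notMem]
    intro h
    exact hF.1 _ (mem_N1.1 h)
  refine ⟨e1, ?_⟩
  rw [card_union_of_disjoint, e1]
  rw [Finset.disjoint_left]
  intro t ht ht2
  obtain ⟨h3, h4, _⟩ := mem_N2.1 ht2
  rcases mem_insert.1 ht with h | h
  · exact h3 h
  · exact h4 (mem_N1.1 h)

/-- Pairs inside a set, of an antisymmetric irreflexive relation. -/
theorem pairs_le {D : V → V → Prop} (hD : Oriented D) (A : Finset V) :
    2 * ((A ×ˢ A).filter fun p => D p.1 p.2).card + A.card ≤ A.card * A.card := by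
  have h1 : ((A ×ˢ A).filter fun p => D p.1 p.2).card =
      ((A ×ˢ A).filter fun p => D p.2 p.1).card := by
    apply Finset.card_bij (fun p _ => (p.2, p.1))
    · intro p hp
      simp only [mem_filter, mem_product] at hp ⊢
      exact ⟨⟨hp.1.2, hp.1.1⟩, hp.2⟩
    · intro p _ q _ h
      simp only [Prod.mk.injEq] at h
      exact Prod.ext h.2 h.1
    · intro p hp
      simp only [mem_filter, mem_product] at hp
      exact ⟨(p.2, p.1), by simp only [mem_filter, mem_product]; exact ⟨⟨hp.1.2, hp.1.1⟩, hp.2⟩,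
        rfl⟩
  have h2 : ((A ×ˢ A).filter fun p => p.1 = p.2).card = A.card := by
    have : ((A ×ˢ A).filter fun p => p.1 = p.2) = A.image fun x => (x, x) := by
      ext p
      simp only [mem_filter, mem_product, mem_image]
      constructor
      · rintro ⟨⟨h1, h2⟩, h3⟩
        exact ⟨p.1, h1, Prod.ext rfl h3⟩
      · rintro ⟨x, hx, rfl⟩
        exact ⟨⟨hx, hx⟩, rfl⟩
    rw [this, card_image_of_injective]
    intro x y h
    exact (Prod.mk.injEq _ _ _ _ ▸ h).1
  have d1 : Disjoint ((A ×ˢ A).filter fun p => D p.1 p.2)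
      ((A ×ˢ A).filter fun p => D p.2 p.1) := by
    rw [Finset.disjoint_left]
    intro p hp hq
    exact hD.2 _ _ (mem_filter.1 hp).2 (mem_filter.1 hq).2
  have d2 : Disjoint (((A ×ˢ A).filter fun p => D p.1 p.2) ∪
      ((A ×ˢ A).filter fun p => D p.2 p.1)) ((A ×ˢ A).filter fun p => p.1 = p.2) := by
    rw [Finset.disjoint_left]
    intro p hp hq
    have he := (mem_filter.1 hq).2
    rcases mem_union.1 hp with h | h
    · have h' := (mem_filter.1 h).2
      rw [he] at h'
      exact hD.1 _ h'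
    · have h' := (mem_filter.1 h).2
      rw [he] at h'
      exact hD.1 _ h'
  have h3 : ((((A ×ˢ A).filter fun p => D p.1 p.2) ∪
      ((A ×ˢ A).filter fun p => D p.2 p.1)) ∪ ((A ×ˢ A).filter fun p => p.1 = p.2)).card ≤
      (A ×ˢ A).card := by
    apply card_le_card
    intro p hp
    rcases mem_union.1 hp with h | h
    · rcases mem_union.1 h with h | h
      · exact (mem_filter.1 h).1
      · exact (mem_filter.1 h).1
    · exact (mem_filter.1 h).1
  rw [card_union_of_disjoint d2, card_union_of_disjoint d1, ← h1, h2, card_product] at h3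
  omega

theorem key {D : V → V → Prop} (hD : Oriented D) (u : V)
    (hmin : ∀ v, (N1 D u).card ≤ (N1 D v).card) :
    2 * ((N1 D u).card : ℤ) ^ 2 + ((Wk D u ∩ N1 D u).card : ℤ) ^ 2 + (Wk D u ∩ N1 D u).card ≤
      2 * (N1 D u).card * (Wk D u).card := by
  set N := N1 D u with hN
  set A := Wk D u ∩ N with hA
  have hAN : A ⊆ N := inter_subset_right
  -- count pairs
  have hP1 := pairs_le hD A
  have hsplit : ((N ×ˢ A).filter fun p => D p.1 p.2).card ≤
      ((A ×ˢ A).filter fun p => D p.1 p.2).card + ((N \ A) ×ˢ A).card := by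
    rw [← card_union_of_disjoint]
    · apply card_le_card
      intro p hp
      simp only [mem_filter, mem_product, mem_union, mem_sdiff] at hp ⊢
      by_cases h : p.1 ∈ A
      · exact Or.inl ⟨⟨h, hp.1.2⟩, hp.2⟩
      · exact Or.inr ⟨⟨hp.1.1, h⟩, hp.1.2⟩
    · rw [Finset.disjoint_left]
      intro p hp hq
      simp only [mem_filter, mem_product, mem_sdiff] at hp hq
      exact hq.1.2 hp.1.1
  have hsum : ((N ×ˢ A).filter fun p => D p.1 p.2).card =
      ∑ x ∈ N, (A.filter fun y => D x y).card := by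
    rw [card_filter, sum_product]
    apply sum_congr rfl
    intro x _
    rw [card_filter]
  have hk : (Wk D u \ N).card + A.card = (Wk D u).card := by
    rw [hA]
    have := card_sdiff_add_card_inter (Wk D u) N
    exact this
  have hx : ∀ x ∈ N, N.card + A.card ≤ (A.filter fun y => D x y).card + (Wk D u).card := by
    intro x hx
    have hux : D u x := (mem_filter.1 hx).2
    have h1 : (N1 D x) ⊆ (A.filter fun y => D x y) ∪ (Wk D u \ N) := by
      intro y hy
      have hxy : D x y := (mem_filter.1 hy).2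
      have hyW : y ∈ Wk D u := mem_filter.2 ⟨mem_univ _, x, hux, hxy⟩
      by_cases hyN : y ∈ N
      · exact mem_union_left _ (mem_filter.2 ⟨mem_inter.2 ⟨hyW, hyN⟩, hxy⟩)
      · exact mem_union_right _ (mem_sdiff.2 ⟨hyW, hyN⟩)
    have h2 := card_le_card h1
    have h3 := card_union_le (A.filter fun y => D x y) (Wk D u \ N)
    have h4 := hmin x
    omega
  have hS : N.card * (N.card + A.card) ≤
      ((N ×ˢ A).filter fun p => D p.1 p.2).card + N.card * (Wk D u).card := by
    rw [hsum]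
    have := Finset.sum_le_sum hx
    rw [sum_const, sum_add_distrib, sum_const, smul_eq_mul, smul_eq_mul] at this
    exact this
  have hc : ((N \ A) ×ˢ A).card = (N \ A).card * A.card := card_product _ _
  have hd : (N \ A).card + A.card = N.card := card_sdiff_add_card_eq_card hAN
  rw [hc] at hsplit
  have hd' : ((N \ A).card : ℤ) = N.card - A.card := by
    have : (((N \ A).card + A.card : ℕ) : ℤ) = N.card := by exact_mod_cast hd
    push_cast at this
    linarith
  have e1 : (2 * (((A ×ˢ A).filter fun p => D p.1 p.2).card : ℤ) + A.card) ≤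
      (A.card : ℤ) * A.card := by exact_mod_cast hP1
  have e2 : (((N ×ˢ A).filter fun p => D p.1 p.2).card : ℤ) ≤
      (((A ×ˢ A).filter fun p => D p.1 p.2).card : ℤ) + ((N.card : ℤ) - A.card) * A.card := by
    rw [← hd']
    exact_mod_cast hsplit
  have e3 : (N.card : ℤ) * (N.card + A.card) ≤
      (((N ×ˢ A).filter fun p => D p.1 p.2).card : ℤ) + N.card * (Wk D u).card := by
    exact_mod_cast hS
  nlinarith

theorem Wk_card {D : V → V → Prop} (hD : Oriented D) (u : V) :
    (Wk D u).card = (N2 D u).card + (Wk D u ∩ N1 D u).card := by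
  have h := card_sdiff_add_card_inter (Wk D u) (N1 D u)
  have : Wk D u \ N1 D u = N2 D u := by
    ext w
    simp only [mem_sdiff, mem_Wk, mem_N1, mem_N2]
    constructor
    · rintro ⟨⟨x, h1, h2⟩, h3⟩
      refine ⟨?_, h3, x, h1, h2⟩
      rintro rfl
      exact hD.2 _ _ h1 h2
    · rintro ⟨_, h3, h4⟩
      exact ⟨h4, h3⟩
  rw [this] at h
  omega

theorem half {D : V → V → Prop} (hD : Oriented D) (u : V)
    (hmin : ∀ v, (N1 D u).card ≤ (N1 D v).card) (hpos : 1 ≤ (N1 D u).card) :
    (N1 D u).card + 1 ≤ 2 * (N2 D u).card := by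
  have h := key hD u hmin
  rw [Wk_card hD u] at h
  have ha : (Wk D u ∩ N1 D u).card ≤ (N1 D u).card := card_le_card inter_subset_right
  set d := (N1 D u).card
  set a := (Wk D u ∩ N1 D u).card
  set k := (N2 D u).card
  push_cast at h
  have hsq : ((d : ℤ) - a) ≤ (d - a) ^ 2 := by
    have h0 : (0 : ℤ) ≤ d - a := by
      have : (a : ℤ) ≤ d := by exact_mod_cast ha
      linarith
    rcases eq_or_lt_of_le h0 with h1 | h1
    · rw [← h1]; norm_num
    · nlinarith
  have h2 : (d : ℤ) * (d + 1) ≤ d * (2 * k) := by nlinarith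
  have h3 : (0 : ℤ) < d := by exact_mod_cast hpos
  have h4 : (d : ℤ) + 1 ≤ 2 * k := le_of_mul_le_mul_left h2 h3
  exact_mod_cast h4

theorem exists_min [Nonempty V] (D : V → V → Prop) :
    ∃ u, ∀ v, (N1 D u).card ≤ (N1 D v).card := by
  obtain ⟨u, _, hu⟩ := exists_min_image (univ : Finset V) (fun v => (N1 D v).card)
    univ_nonempty
  exact ⟨u, fun v => hu v (mem_univ v)⟩

theorem direct_seymour [Nonempty V] [Nonempty W] {D : V → V → Prop} {E : W → W → Prop}
    (hD : Oriented D) (hE : Oriented E) : HasSeymourVertex (direct D E) := by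
  obtain ⟨u, hu⟩ := exists_min D
  obtain ⟨v, hv⟩ := exists_min E
  refine ⟨(u, v), ?_⟩
  have h1 : N1 (direct D E) (u, v) = N1 D u ×ˢ N1 E v := by
    ext p
    simp only [mem_N1, direct, mem_product]
  have h2 : (Wk D u ×ˢ Wk E v) \ ((Wk D u ∩ N1 D u) ×ˢ (Wk E v ∩ N1 E v)) ⊆
      N2 (direct D E) (u, v) := by
    intro p hp
    simp only [mem_sdiff, mem_product, mem_inter, mem_Wk, mem_N1, mem_N2, direct] at hp ⊢
    obtain ⟨⟨⟨x, hx1, hx2⟩, ⟨y, hy1, hy2⟩⟩, hn⟩ := hp
    refine ⟨?_, ?_, (x, y), ⟨hx1, hy1⟩, hx2, hy2⟩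
    · rintro rfl
      exact hD.2 _ _ hx1 hx2
    · rintro ⟨h3, h4⟩
      exact hn ⟨⟨⟨x, hx1, hx2⟩, h3⟩, ⟨⟨y, hy1, hy2⟩, h4⟩⟩
  rw [h1, card_product]
  have h3 := card_le_card h2
  rw [card_sdiff_of_subset (product_subset_product inter_subset_left inter_subset_left),
    card_product, card_product] at h3
  refine le_trans ?_ h3
  have k1 := key hD u hu
  have k2 := key hE v hv
  set d := (N1 D u).card
  set e := (N1 E v).card
  set a := (Wk D u ∩ N1 D u).card
  set b := (Wk E v ∩ N1 E v).card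
  set k := (Wk D u).card
  set l := (Wk E v).card
  apply Nat.le_sub_of_add_le
  rcases Nat.eq_zero_or_pos d with hd | hd
  · have ha : a ≤ k := card_le_card inter_subset_left
    have hb : b ≤ l := card_le_card inter_subset_left
    rw [hd]
    have := Nat.mul_le_mul ha hb
    omega
  rcases Nat.eq_zero_or_pos e with he | he
  · have ha : a ≤ k := card_le_card inter_subset_left
    have hb : b ≤ l := card_le_card inter_subset_left
    rw [he]
    have := Nat.mul_le_mul ha hb
    omega
  have hd' : (0 : ℤ) < d := by exact_mod_cast hd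
  have he' : (0 : ℤ) < e := by exact_mod_cast he
  have ha0 : (0 : ℤ) ≤ a := by positivity
  have hb0 : (0 : ℤ) ≤ b := by positivity
  have m1 : (2 * (d : ℤ) ^ 2 + a ^ 2) * (2 * (e : ℤ) ^ 2 + b ^ 2) ≤
      (2 * d * k) * (2 * e * l) := by
    apply mul_le_mul
    · linarith
    · linarith
    · positivity
    · positivity
  have m2 : (4 * (d : ℤ) * e) * (d * e + a * b) ≤ (4 * (d : ℤ) * e) * (k * l) := by
    nlinarith [sq_nonneg ((d : ℤ) * b - a * e), sq_nonneg ((a : ℤ) * b)]
  have m3 : ((d : ℤ) * e + a * b) ≤ k * l := le_of_mul_le_mul_left m2 (by positivity)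
  exact_mod_cast m3

theorem strong_seymour [Nonempty V] [Nonempty W] {D : V → V → Prop} {E : W → W → Prop}
    (hD : Oriented D) (hE : Oriented E) (sD : ∀ u, ∃ x, D u x) (sE : ∀ u, ∃ x, E u x) :
    HasSeymourVertex (strong D E) := by
  obtain ⟨u, hu⟩ := exists_min D
  obtain ⟨v, hv⟩ := exists_min E
  refine ⟨(u, v), ?_⟩
  have pd : 1 ≤ (N1 D u).card := by
    obtain ⟨x, hx⟩ := sD u
    exact card_pos.2 ⟨x, mem_filter.2 ⟨mem_univ _, hx⟩⟩
  have pe : 1 ≤ (N1 E v).card := by
    obtain ⟨x, hx⟩ := sE v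
    exact card_pos.2 ⟨x, mem_filter.2 ⟨mem_univ _, hx⟩⟩
  have h1 : N1 (strong D E) (u, v) ⊆ insert u (N1 D u) ×ˢ insert v (N1 E v) := by
    intro p hp
    rw [mem_N1] at hp
    obtain ⟨h, h3, h4⟩ := hp
    rw [mem_product, mem_insert, mem_insert, mem_N1, mem_N1]
    refine ⟨?_, ?_⟩
    · rcases h3 with h3 | h3
      · exact Or.inl h3.symm
      · exact Or.inr h3
    · rcases h4 with h4 | h4
      · exact Or.inl h4.symm
      · exact Or.inr h4
  have h2 : ((insert u (N1 D u) ∪ N2 D u) ×ˢ (insert v (N1 E v) ∪ N2 E v)) \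
      (insert u (N1 D u) ×ˢ insert v (N1 E v)) ⊆ N2 (strong D E) (u, v) := by
    intro p hp
    obtain ⟨w, z⟩ := p
    rw [mem_sdiff, mem_product, mem_union, mem_union, mem_product] at hp
    obtain ⟨⟨hw, hz⟩, hn⟩ := hp
    rw [mem_N2]
    refine ⟨?_, ?_, ?_⟩
    · intro h
      rw [h] at hn
      exact hn ⟨mem_insert_self _ _, mem_insert_self _ _⟩
    · rintro ⟨_, h3, h4⟩
      apply hn
      constructor
      · rcases h3 with h3 | h3
        · exact mem_insert.2 (Or.inl h3.symm)
        · exact mem_insert_of_mem (mem_filter.2 ⟨mem_univ _, h3⟩)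
      · rcases h4 with h4 | h4
        · exact mem_insert.2 (Or.inl h4.symm)
        · exact mem_insert_of_mem (mem_filter.2 ⟨mem_univ _, h4⟩)
    · by_cases c1 : w ∈ insert u (N1 D u)
      · have c2 : z ∈ N2 E v := by
          rcases hz with h | h
          · exact absurd ⟨c1, h⟩ hn
          · exact h
        obtain ⟨y, y1, y2, y3, y4⟩ := hmid hE c2
        exact ⟨(w, y), ⟨fun h => y3 (congrArg Prod.snd h), hin c1, Or.inr y1⟩,
          ⟨fun h => y4 (congrArg Prod.snd h), Or.inl rfl, Or.inr y2⟩⟩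
      · have c3 : w ∈ N2 D u := by
          rcases hw with h | h
          · exact absurd h c1
          · exact h
        obtain ⟨x, x1, x2, x3, x4⟩ := hmid hD c3
        rcases hz with h | h
        · exact ⟨(x, z), ⟨fun h => x3 (congrArg Prod.fst h), Or.inr x1, hin h⟩,
            ⟨fun h => x4 (congrArg Prod.fst h), Or.inr x2, Or.inl rfl⟩⟩
        · obtain ⟨y, y1, y2, y3, y4⟩ := hmid hE h
          exact ⟨(x, y), ⟨fun h => x3 (congrArg Prod.fst h), Or.inr x1, Or.inr y1⟩,
            ⟨fun h => x4 (congrArg Prod.fst h), Or.inr x2, Or.inr y2⟩⟩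
  have q1 : (N1 (strong D E) (u, v)).card + 1 ≤
      (insert u (N1 D u) ×ˢ insert v (N1 E v)).card := by
    apply Finset.card_lt_card
    rw [Finset.ssubset_iff_of_subset h1]
    refine ⟨(u, v), mem_product.2 ⟨mem_insert_self _ _, mem_insert_self _ _⟩, ?_⟩
    rw [mem_N1]
    exact fun h => h.1 rfl
  have q2 := card_le_card h2
  rw [card_product, (hcard hD u).1, (hcard hE v).1] at q1
  rw [card_sdiff_of_subset (product_subset_product subset_union_left subset_union_left),
    card_product, card_product, (hcard hD u).1, (hcard hE v).1, (hcard hD u).2,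
    (hcard hE v).2] at q2
  refine le_trans (Nat.le_of_succ_le q1) (le_trans ?_ q2)
  have k1 := half hD u hu pd
  have k2 := half hE v hv pe
  set d := (N1 D u).card
  set e := (N1 E v).card
  set x := (N2 D u).card
  set y := (N2 E v).card
  apply Nat.le_sub_of_add_le
  have : (d + 1) * (e + 1) + (d + 1) * (e + 1) ≤ (d + 1 + x) * (e + 1 + y) := by
    nlinarith [Nat.mul_le_mul k1 k2, Nat.mul_le_mul k1 (le_refl (e + 1)),
      Nat.mul_le_mul k2 (le_refl (d + 1))]
  omega

theorem cartesian_count {D : V → V → Prop} {E : W → W → Prop}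
    (hD : Oriented D) (hE : Oriented E) (u : V) (v : W) :
    (N1 (cartesian D E) (u, v)).card ≤ (N1 D u).card + (N1 E v).card ∧
    (N2 D u).card + (N2 E v).card + (N1 D u).card * (N1 E v).card ≤
      (N2 (cartesian D E) (u, v)).card := by
  constructor
  · have h1 : N1 (cartesian D E) (u, v) ⊆ (N1 D u ×ˢ {v}) ∪ ({u} ×ˢ N1 E v) := by
      intro p hp
      simp only [mem_N1, cartesian, mem_product, mem_union, mem_singleton] at hp ⊢
      rcases hp with ⟨h1, h2⟩ | ⟨h1, h2⟩
      · exact Or.inl ⟨h1, h2.symm⟩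
      · exact Or.inr ⟨h1.symm, h2⟩
    have h2 := (card_le_card h1).trans (card_union_le _ _)
    rw [card_product, card_product, card_singleton, card_singleton] at h2
    omega
  · have h1 : ((N2 D u ×ˢ {v}) ∪ ({u} ×ˢ N2 E v)) ∪ (N1 D u ×ˢ N1 E v) ⊆
        N2 (cartesian D E) (u, v) := by
      intro p hp
      obtain ⟨w, z⟩ := p
      simp only [mem_N1, mem_N2, cartesian, mem_product, mem_union, mem_singleton] at hp ⊢
      rcases hp with (⟨⟨h1, h2, x, h3, h4⟩, rfl⟩ | ⟨rfl, ⟨h1, h2, y, h3, h4⟩⟩) | ⟨h1, h2⟩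
      · refine ⟨fun h => h1 (congrArg Prod.fst h), ?_, (x, z), Or.inl ⟨h3, rfl⟩,
          Or.inl ⟨h4, rfl⟩⟩
        rintro (⟨h5, _⟩ | ⟨h5, _⟩)
        · exact h2 h5
        · exact h1 h5.symm
      · refine ⟨fun h => h1 (congrArg Prod.snd h), ?_, (w, y), Or.inr ⟨rfl, h3⟩,
          Or.inr ⟨rfl, h4⟩⟩
        rintro (⟨_, h5⟩ | ⟨_, h5⟩)
        · exact h1 h5.symm
        · exact h2 h5
      · have hw : u ≠ w := by
          rintro rfl; exact hD.1 _ h1
        have hz : v ≠ z := by
          rintro rfl; exact hE.1 _ h2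
        refine ⟨fun h => hw (congrArg Prod.fst h).symm, ?_, (w, v), Or.inl ⟨h1, rfl⟩,
          Or.inr ⟨rfl, h2⟩⟩
        rintro (⟨_, h5⟩ | ⟨h5, _⟩)
        · exact hz h5
        · exact hw h5
    have d1 : Disjoint (N2 D u ×ˢ ({v} : Finset W)) (({u} : Finset V) ×ˢ N2 E v) := by
      rw [Finset.disjoint_left]
      intro p hp hq
      simp only [mem_N2, mem_product, mem_singleton] at hp hq
      exact hp.1.1 hq.1
    have d2 : Disjoint ((N2 D u ×ˢ ({v} : Finset W)) ∪ (({u} : Finset V) ×ˢ N2 E v))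
        (N1 D u ×ˢ N1 E v) := by
      rw [Finset.disjoint_left]
      intro p hp hq
      simp only [mem_N1, mem_N2, mem_product, mem_union, mem_singleton] at hp hq
      rcases hp with ⟨_, h⟩ | ⟨h, _⟩
      · rw [h] at hq
        exact hE.1 _ hq.2
      · rw [h] at hq
        exact hD.1 _ hq.1
    have h2 := card_le_card h1
    rw [card_union_of_disjoint d2, card_union_of_disjoint d1, card_product, card_product,
      card_product, card_singleton, card_singleton] at h2
    omega

theorem cartesian_seymour [Nonempty V] [Nonempty W] {D : V → V → Prop} {E : W → W → Prop}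
    (hD : Oriented D) (hE : Oriented E) (aD : ∃ u x, D u x) (aE : ∃ u x, E u x) :
    HasSeymourVertex (cartesian D E) := by
  obtain ⟨u, hu⟩ := exists_min D
  obtain ⟨v, hv⟩ := exists_min E
  have arith : ∀ d e x y : ℕ, 1 ≤ d → 1 ≤ e → 1 ≤ x + y → d + e ≤ x + y + d * e := by
    intro d e x y hd he hx
    obtain ⟨d', rfl⟩ : ∃ d', d = d' + 1 := ⟨d - 1, by omega⟩
    obtain ⟨e', rfl⟩ : ∃ e', e = e' + 1 := ⟨e - 1, by omega⟩
    nlinarith [Nat.zero_le (d' * e')]
  rcases Nat.eq_zero_or_pos (N1 D u).card with hd | hd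
  · rcases Nat.eq_zero_or_pos (N1 E v).card with he | he
    · refine ⟨(u, v), ?_⟩
      have h := (cartesian_count hD hE u v).1
      omega
    · obtain ⟨s, t, hst⟩ := aD
      refine ⟨(s, v), ?_⟩
      have h := cartesian_count hD hE s v
      have h3 : 1 ≤ (N1 D s).card := card_pos.2 ⟨t, mem_filter.2 ⟨mem_univ _, hst⟩⟩
      have h4 := half hE v hv he
      have h5 := arith _ _ (N2 D s).card (N2 E v).card h3 he (by omega)
      omega
  · obtain ⟨s, t, hst⟩ := aE
    refine ⟨(u, s), ?_⟩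
    have h := cartesian_count hD hE u s
    have h3 : 1 ≤ (N1 E s).card := card_pos.2 ⟨t, mem_filter.2 ⟨mem_univ _, hst⟩⟩
    have h4 := half hD u hu hd
    have h5 := arith _ _ (N2 D u).card (N2 E s).card hd h3 (by omega)
    omega

end Vale.Agent.P038P
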