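import Mathlib

/-! P038: Seymour's second neighbourhood conjecture for oriented graphs with sparse
out-neighbourhoods. -/

namespace Vale.Agent.P038P.Sparse

open Finset

variable {V : Type} [Fintype V] [DecidableEq V]

open Classical in
/-- the first out-neighbourhood `{u : v → u}` -/
noncomputable def firstOut (D : V → V → Prop) (v : V) : Finset V :=
  univ.filter fun u => D v u

open Classical in
/-- the vertices `w ≠ v`, not in the first out-neighbourhood, with `v → u → w` for some `u` -/
noncomputable def secondOut (D : V → V → Prop) (v : V) : Finset V :=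
  univ.filter fun w => w ≠ v ∧ ¬ D v w ∧ ∃ u, D v u ∧ D u w

open Classical in
/-- the number of arcs with both ends in `S` -/
noncomputable def arcsIn (D : V → V → Prop) (S : Finset V) : ℕ :=
  ((S ×ˢ S).filter fun p => D p.1 p.2).card

open Classical in
/-- out-degree inside `S` -/
noncomputable def od (D : V → V → Prop) (S : Finset V) (x : V) : ℕ := (S.filter fun y => D x y).card

theorem arcsIn_eq (D : V → V → Prop) (S : Finset V) : arcsIn D S = ∑ x ∈ S, od D S x := by
  classical
  unfold arcsIn od
  rw [Finset.card_filter, Finset.sum_product]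
  refine Finset.sum_congr rfl fun x _ => ?_
  rw [Finset.card_filter]

theorem mem_firstOut {D : V → V → Prop} {v u : V} : u ∈ firstOut D v ↔ D v u := by
  simp [firstOut]

theorem mem_secondOut {D : V → V → Prop} {v w : V} :
    w ∈ secondOut D v ↔ w ≠ v ∧ ¬ D v w ∧ ∃ u, D v u ∧ D u w := by
  simp [secondOut]

/-- out-neighbours of an out-neighbour -/
theorem sub_union {D : V → V → Prop} (hD : ∀ u v, D u v → ¬ D v u) {v x : V} (hx : D v x) :
    firstOut D x \ firstOut D v ⊆ secondOut D v := by
  intro y hy
  rw [mem_sdiff, mem_firstOut, mem_firstOut] at hy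
  rw [mem_secondOut]
  refine ⟨?_, hy.2, x, hx, hy.1⟩
  rintro rfl
  exact hD _ _ hx hy.1

theorem od_eq (D : V → V → Prop) (v x : V) :
    od D (firstOut D v) x = (firstOut D x ∩ firstOut D v).card := by
  classical
  unfold od
  congr 1
  ext y
  simp only [mem_filter, mem_inter, mem_firstOut]
  tauto

theorem card_split (D : V → V → Prop) (v x : V) :
    (firstOut D x \ firstOut D v).card + od D (firstOut D v) x = (firstOut D x).card := by
  rw [od_eq]
  exact Finset.card_sdiff_add_card_inter _ _

theorem sum_lower {D : V → V → Prop} {S : Finset V} {w : V} (hw : w ∈ S)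
    (h1 : ∀ x ∈ S, 1 ≤ od D S x) : od D S w + (S.card - 1) ≤ arcsIn D S := by
  rw [arcsIn_eq, ← Finset.add_sum_erase S _ hw, ← Finset.card_erase_of_mem hw]
  apply Nat.add_le_add_left
  calc (S.erase w).card = ∑ _x ∈ S.erase w, 1 := by simp
    _ ≤ ∑ x ∈ S.erase w, od D S x :=
        Finset.sum_le_sum fun x hx => h1 x (Finset.mem_of_mem_erase hx)

theorem main (D : V → V → Prop) [Nonempty V] (hD : ∀ u v, D u v → ¬ D v u)
    (h : ∀ v, (∀ x, (firstOut D v).card ≤ (firstOut D x).card) →
      2 * arcsIn D (firstOut D v) ≤ 3 * ((firstOut D v).card - 1)) :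
    ∃ v, (firstOut D v).card ≤ (secondOut D v).card := by
  classical
  by_contra hcon
  simp only [not_exists, not_le] at hcon
  obtain ⟨v, _, hv⟩ := Finset.exists_min_image (univ : Finset V) (fun x => (firstOut D x).card)
    univ_nonempty
  have hv' : ∀ x, (firstOut D v).card ≤ (firstOut D x).card := fun x => hv x (mem_univ x)
  set d := (firstOut D v).card with hd
  -- inner out-degrees are positive
  have inner : ∀ v', (firstOut D v').card = d → ∀ x ∈ firstOut D v',
      1 ≤ od D (firstOut D v') x := by
    intro v' hv1 x hx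
    have h1 := card_split D v' x
    have h2 := Finset.card_le_card (sub_union hD (mem_firstOut.1 hx))
    have h3 := hcon v'
    have h4 := hv' x
    omega
  have hpos : 0 < d := by have := hcon v; omega
  have hav := h v hv'
  -- a vertex of inner out-degree one
  obtain ⟨u, hu, hu1⟩ : ∃ u ∈ firstOut D v, od D (firstOut D v) u ≤ 1 := by
    by_contra hno
    simp only [not_exists, not_and, not_le] at hno
    have h5 : 2 * d ≤ arcsIn D (firstOut D v) := by
      rw [arcsIn_eq, hd]
      calc 2 * (firstOut D v).card = ∑ _x ∈ firstOut D v, 2 := by simp [mul_comm]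
        _ ≤ ∑ x ∈ firstOut D v, od D (firstOut D v) x :=
            Finset.sum_le_sum fun x hx => hno x hx
    omega
  have hu2 := inner v rfl u hu
  have hu3 : od D (firstOut D v) u = 1 := by omega
  have hsub := sub_union hD (mem_firstOut.1 hu)
  have hsp := card_split D v u
  have hcl := Finset.card_le_card hsub
  have hc := hcon v
  have hdu := hv' u
  have hcu : (firstOut D u).card = d := by omega
  have heq : firstOut D u \ firstOut D v = secondOut D v :=
    Finset.eq_of_subset_of_card_le hsub (by omega)
  -- the inner out-neighbour `w` of `u`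
  obtain ⟨w, hw⟩ : ∃ w, w ∈ firstOut D u ∩ firstOut D v := by
    have : 0 < (firstOut D u ∩ firstOut D v).card := by rw [← od_eq]; omega
    exact Finset.card_pos.1 this
  rw [mem_inter] at hw
  have h6 := sum_lower hw.2 (inner v rfl)
  have h7 := sum_lower hw.1 (inner u hcu)
  have hau := h u (fun x => by rw [hcu]; exact hv' x)
  have h8 := card_split D v w
  have h9 : (firstOut D w \ firstOut D v).card ≤ od D (firstOut D u) w := by
    rw [od_eq]
    apply Finset.card_le_card
    intro y hy
    have hy2 : y ∈ secondOut D v := sub_union hD (mem_firstOut.1 hw.2) hy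
    rw [← heq] at hy2
    rw [mem_sdiff] at hy hy2
    exact mem_inter.2 ⟨hy.1, hy2.1⟩
  have h10 := hv' w
  omega

theorem two_arcs_le (D : V → V → Prop) (hD : ∀ u v, D u v → ¬ D v u) (S : Finset V) :
    2 * arcsIn D S ≤ S.card * S.card - S.card := by
  classical
  rw [← Finset.offDiag_card]
  set A : Finset (V × V) := (S ×ˢ S).filter fun p => D p.1 p.2 with hA
  set B : Finset (V × V) := A.map (Equiv.prodComm V V).toEmbedding with hB
  have e1 : arcsIn D S = A.card := by
    unfold arcsIn
    rw [hA]
  have hdis : Disjoint A B := by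
    rw [Finset.disjoint_left]
    rintro ⟨x, y⟩ h1 h2
    rw [hA, mem_filter] at h1
    rw [hB, mem_map] at h2
    obtain ⟨⟨a, b⟩, h3, h4⟩ := h2
    rw [hA, mem_filter] at h3
    simp only [Equiv.coe_toEmbedding, Equiv.prodComm_apply, Prod.swap_prod_mk, Prod.mk.injEq] at h4
    obtain ⟨rfl, rfl⟩ := h4
    exact hD _ _ h1.2 h3.2
  have hsub : A ∪ B ⊆ S.offDiag := by
    rintro ⟨x, y⟩ h
    rw [mem_union] at h
    rw [mem_offDiag]
    rcases h with h | h
    · rw [hA, mem_filter, mem_product] at h
      refine ⟨h.1.1, h.1.2, ?_⟩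
      intro hxy
      simp only at hxy
      subst hxy
      exact hD _ _ h.2 h.2
    · rw [hB, mem_map] at h
      obtain ⟨⟨a, b⟩, h3, h4⟩ := h
      rw [hA, mem_filter, mem_product] at h3
      simp only [Equiv.coe_toEmbedding, Equiv.prodComm_apply, Prod.swap_prod_mk,
        Prod.mk.injEq] at h4
      obtain ⟨rfl, rfl⟩ := h4
      refine ⟨h3.1.2, h3.1.1, ?_⟩
      intro hxy
      simp only at hxy
      subst hxy
      exact hD _ _ h3.2 h3.2
  have h5 := Finset.card_le_card hsub
  rw [Finset.card_union_of_disjoint hdis, hB, Finset.card_map] at h5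
  omega

theorem main2 (D : V → V → Prop) [Nonempty V] (hD : ∀ u v, D u v → ¬ D v u)
    (h : ∀ v, (∀ x, (firstOut D v).card ≤ (firstOut D x).card) →
      arcsIn D (firstOut D v) ≤ (firstOut D v).card) :
    ∃ v, (firstOut D v).card ≤ (secondOut D v).card := by
  apply main D hD
  intro v hv
  have h1 := h v hv
  have h2 := two_arcs_le D hD (firstOut D v)
  generalize (firstOut D v).card = d at *
  rcases Nat.lt_or_ge d 3 with h3 | h3
  · interval_cases d <;> omega
  · omega

theorem two_arcs_eq (D : V → V → Prop) (hD : ∀ u v, D u v → ¬ D v u) (S : Finset V) (c : ℕ)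
    (h : ∀ x ∈ S, ∀ T : Finset V, (∀ y ∈ T, y ∈ S ∧ (D x y ∨ D y x)) → T.card ≤ c) :
    2 * arcsIn D S ≤ c * S.card := by
  classical
  have e1 : arcsIn D S = ∑ x ∈ S, (S.filter fun y => D x y).card := by
    rw [arcsIn_eq]
    refine Finset.sum_congr rfl fun x _ => ?_
    unfold od
    congr
  have e2 : arcsIn D S = ∑ x ∈ S, (S.filter fun y => D y x).card := by
    rw [e1]
    simp only [Finset.card_filter]
    exact Finset.sum_comm
  have e3 : 2 * arcsIn D S = ∑ x ∈ S, ((S.filter fun y => D x y).card +
      (S.filter fun y => D y x).card) := by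
    rw [Finset.sum_add_distrib, ← e1, ← e2]
    ring
  rw [e3]
  calc ∑ x ∈ S, ((S.filter fun y => D x y).card + (S.filter fun y => D y x).card)
      ≤ ∑ _x ∈ S, c := by
        refine Finset.sum_le_sum fun x hx => ?_
        rw [← Finset.card_union_of_disjoint]
        · apply h x hx
          intro y hy
          rw [mem_union, mem_filter, mem_filter] at hy
          rcases hy with hy | hy
          · exact ⟨hy.1, Or.inl hy.2⟩
          · exact ⟨hy.1, Or.inr hy.2⟩
        · rw [Finset.disjoint_left]
          intro y h1 h2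
          rw [mem_filter] at h1 h2
          exact hD _ _ h1.2 h2.2
    _ = c * S.card := by simp [mul_comm]

open Classical in
/-- The second neighbourhood conjecture for oriented graphs with sparse out-neighbourhoods. -/
theorem sparse_thm [Nonempty V] (D : V → V → Prop) (hD : ∀ u v, D u v → ¬ D v u) :
    ((∀ v, (∀ x, (firstOut D v).card ≤ (firstOut D x).card) →
        2 * arcsIn D (firstOut D v) ≤ 3 * ((firstOut D v).card - 1)) →
      ∃ v, (firstOut D v).card ≤ (secondOut D v).card) ∧
    ((∀ v, (∀ x, (firstOut D v).card ≤ (firstOut D x).card) →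
        arcsIn D (firstOut D v) ≤ (firstOut D v).card) →
      ∃ v, (firstOut D v).card ≤ (secondOut D v).card) ∧
    ((∀ v x, D v x → (univ.filter fun y => D v y ∧ (D x y ∨ D y x)).card ≤ 2) →
      ∃ v, (firstOut D v).card ≤ (secondOut D v).card) ∧
    ((∀ v x, (D v x ∨ D x v) →
        (univ.filter fun y => (D v y ∨ D y v) ∧ (D x y ∨ D y x)).card ≤ 2) →
      ∃ v, (firstOut D v).card ≤ (secondOut D v).card) := by
  have h3 : (∀ v x, D v x → (univ.filter fun y => D v y ∧ (D x y ∨ D y x)).card ≤ 2) →
      ∃ v, (firstOut D v).card ≤ (secondOut D v).card := by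
    intro h
    apply main2 D hD
    intro v _
    have := two_arcs_eq D hD (firstOut D v) 2 (by
      intro x hx T hT
      refine (Finset.card_le_card ?_).trans (h v x (mem_firstOut.1 hx))
      intro y hy
      rw [mem_filter]
      exact ⟨mem_univ _, mem_firstOut.1 (hT y hy).1, (hT y hy).2⟩)
    omega
  refine ⟨main D hD, main2 D hD, h3, fun h => h3 fun v x hvx => ?_⟩
  refine (Finset.card_le_card ?_).trans (h v x (Or.inl hvx))
  intro y hy
  rw [mem_filter] at hy ⊢
  exact ⟨mem_univ _, Or.inl hy.2.1, hy.2.2⟩

end Vale.Agent.P038P.Sparse
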