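import Mathlib

/-! P038: Seymour's second neighbourhood conjecture for oriented graphs whose
out-neighbourhoods span few arcs. -/

namespace Vale.Agent.P038P.Two

open Finset

variable {V : Type} [Fintype V] [DecidableEq V]

open Classical in
/-- the first out-neighbourhood `{u : v → u}` -/
noncomputable def firstOut (D : V → V → Prop) (v : V) : Finset V :=
  univ.filter fun u => D v u

open Classical in
/-- the vertices `w ≠ v`, not in the first out-neighbourhood, with `v → u → w` for some `u` -/
noncomputable def secondOut (D : V → V → Prop) (v : V) : Finset V :=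
  univ.filter fun w => w ≠ v ∧ ¬ D v w ∧ ∃ u, D v u ∧ D u w

open Classical in
/-- the number of arcs with both ends in `S` -/
noncomputable def arcsIn (D : V → V → Prop) (S : Finset V) : ℕ :=
  ((S ×ˢ S).filter fun p => D p.1 p.2).card

open Classical in
/-- out-degree inside `S` -/
noncomputable def od (D : V → V → Prop) (S : Finset V) (x : V) : ℕ := (S.filter fun y => D x y).card

theorem arcsIn_eq (D : V → V → Prop) (S : Finset V) : arcsIn D S = ∑ x ∈ S, od D S x := by
  classical
  unfold arcsIn od
  rw [Finset.card_filter, Finset.sum_product]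
  refine Finset.sum_congr rfl fun x _ => ?_
  rw [Finset.card_filter]

theorem mem_firstOut {D : V → V → Prop} {v u : V} : u ∈ firstOut D v ↔ D v u := by
  simp [firstOut]

theorem mem_secondOut {D : V → V → Prop} {v w : V} :
    w ∈ secondOut D v ↔ w ≠ v ∧ ¬ D v w ∧ ∃ u, D v u ∧ D u w := by
  simp [secondOut]

/-- out-neighbours of an out-neighbour -/
theorem sub_union {D : V → V → Prop} (hD : ∀ u v, D u v → ¬ D v u) {v x : V} (hx : D v x) :
    firstOut D x \ firstOut D v ⊆ secondOut D v := by
  intro y hy
  rw [mem_sdiff, mem_firstOut, mem_firstOut] at hy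
  rw [mem_secondOut]
  refine ⟨?_, hy.2, x, hx, hy.1⟩
  rintro rfl
  exact hD _ _ hx hy.1

theorem od_eq (D : V → V → Prop) (v x : V) :
    od D (firstOut D v) x = (firstOut D x ∩ firstOut D v).card := by
  classical
  unfold od
  congr 1
  ext y
  simp only [mem_filter, mem_inter, mem_firstOut]
  tauto

theorem card_split (D : V → V → Prop) (v x : V) :
    (firstOut D x \ firstOut D v).card + od D (firstOut D v) x = (firstOut D x).card := by
  rw [od_eq]
  exact Finset.card_sdiff_add_card_inter _ _

theorem sum_lower {D : V → V → Prop} {S : Finset V} {w : V} (hw : w ∈ S)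
    (h1 : ∀ x ∈ S, 1 ≤ od D S x) : od D S w + (S.card - 1) ≤ arcsIn D S := by
  rw [arcsIn_eq, ← Finset.add_sum_erase S _ hw, ← Finset.card_erase_of_mem hw]
  apply Nat.add_le_add_left
  calc (S.erase w).card = ∑ _x ∈ S.erase w, 1 := by simp
    _ ≤ ∑ x ∈ S.erase w, od D S x :=
        Finset.sum_le_sum fun x hx => h1 x (Finset.mem_of_mem_erase hx)

theorem two_arcs_le (D : V → V → Prop) (hD : ∀ u v, D u v → ¬ D v u) (S : Finset V) :
    2 * arcsIn D S ≤ S.card * S.card - S.card := by
  classical
  rw [← Finset.offDiag_card]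
  set A : Finset (V × V) := (S ×ˢ S).filter fun p => D p.1 p.2 with hA
  set B : Finset (V × V) := A.map (Equiv.prodComm V V).toEmbedding with hB
  have e1 : arcsIn D S = A.card := by
    unfold arcsIn
    rw [hA]
  have hdis : Disjoint A B := by
    rw [Finset.disjoint_left]
    rintro ⟨x, y⟩ h1 h2
    rw [hA, mem_filter] at h1
    rw [hB, mem_map] at h2
    obtain ⟨⟨a, b⟩, h3, h4⟩ := h2
    rw [hA, mem_filter] at h3
    simp only [Equiv.coe_toEmbedding, Equiv.prodComm_apply, Prod.swap_prod_mk, Prod.mk.injEq] at h4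
    obtain ⟨rfl, rfl⟩ := h4
    exact hD _ _ h1.2 h3.2
  have hsub : A ∪ B ⊆ S.offDiag := by
    rintro ⟨x, y⟩ h
    rw [mem_union] at h
    rw [mem_offDiag]
    rcases h with h | h
    · rw [hA, mem_filter, mem_product] at h
      refine ⟨h.1.1, h.1.2, ?_⟩
      intro hxy
      simp only at hxy
      subst hxy
      exact hD _ _ h.2 h.2
    · rw [hB, mem_map] at h
      obtain ⟨⟨a, b⟩, h3, h4⟩ := h
      rw [hA, mem_filter, mem_product] at h3
      simp only [Equiv.coe_toEmbedding, Equiv.prodComm_apply, Prod.swap_prod_mk,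
        Prod.mk.injEq] at h4
      obtain ⟨rfl, rfl⟩ := h4
      refine ⟨h3.1.2, h3.1.1, ?_⟩
      intro hxy
      simp only at hxy
      subst hxy
      exact hD _ _ h3.2 h3.2
  have h5 := Finset.card_le_card hsub
  rw [Finset.card_union_of_disjoint hdis, hB, Finset.card_map] at h5
  omega

theorem two_arcs_eq (D : V → V → Prop) (hD : ∀ u v, D u v → ¬ D v u) (S : Finset V) (c : ℕ)
    (h : ∀ x ∈ S, ∀ T : Finset V, (∀ y ∈ T, y ∈ S ∧ (D x y ∨ D y x)) → T.card ≤ c) :
    2 * arcsIn D S ≤ c * S.card := by
  classical
  have e1 : arcsIn D S = ∑ x ∈ S, (S.filter fun y => D x y).card := by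
    rw [arcsIn_eq]
    refine Finset.sum_congr rfl fun x _ => ?_
    unfold od
    congr
  have e2 : arcsIn D S = ∑ x ∈ S, (S.filter fun y => D y x).card := by
    rw [e1]
    simp only [Finset.card_filter]
    exact Finset.sum_comm
  have e3 : 2 * arcsIn D S = ∑ x ∈ S, ((S.filter fun y => D x y).card +
      (S.filter fun y => D y x).card) := by
    rw [Finset.sum_add_distrib, ← e1, ← e2]
    ring
  rw [e3]
  calc ∑ x ∈ S, ((S.filter fun y => D x y).card + (S.filter fun y => D y x).card)
      ≤ ∑ _x ∈ S, c := by
        refine Finset.sum_le_sum fun x hx => ?_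
        rw [← Finset.card_union_of_disjoint]
        · apply h x hx
          intro y hy
          rw [mem_union, mem_filter, mem_filter] at hy
          rcases hy with hy | hy
          · exact ⟨hy.1, Or.inl hy.2⟩
          · exact ⟨hy.1, Or.inr hy.2⟩
        · rw [Finset.disjoint_left]
          intro y h1 h2
          rw [mem_filter] at h1 h2
          exact hD _ _ h1.2 h2.2
    _ = c * S.card := by simp [mul_comm]


open Classical in
/-- the vertices of inner out-degree one -/
noncomputable def TT (D : V → V → Prop) (v : V) : Finset V :=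
  (firstOut D v).filter fun x => od D (firstOut D v) x = 1

theorem count (D : V → V → Prop) (v : V) (h1 : ∀ x ∈ firstOut D v, 1 ≤ od D (firstOut D v) x)
    {W : Finset V} (hW : W ⊆ firstOut D v) :
    ∑ x ∈ W, od D (firstOut D v) x + 2 * (firstOut D v).card ≤
      arcsIn D (firstOut D v) + (TT D v).card + 2 * W.card := by
  classical
  have e1 : arcsIn D (firstOut D v) = ∑ x ∈ firstOut D v \ W, od D (firstOut D v) x +
      ∑ x ∈ W, od D (firstOut D v) x := by
    rw [arcsIn_eq, Finset.sum_sdiff hW]
  have e2 : (firstOut D v \ W).card + W.card = (firstOut D v).card :=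
    Finset.card_sdiff_add_card_eq_card hW
  have e3 : 2 * (firstOut D v \ W).card ≤ ∑ x ∈ firstOut D v \ W,
      (od D (firstOut D v) x + if od D (firstOut D v) x = 1 then 1 else 0) := by
    calc 2 * (firstOut D v \ W).card = ∑ _x ∈ firstOut D v \ W, 2 := by simp [mul_comm]
      _ ≤ _ := by
        refine Finset.sum_le_sum fun x hx => ?_
        have := h1 x (Finset.mem_sdiff.1 hx).1
        split_ifs with h
        · omega
        · omega
  rw [Finset.sum_add_distrib] at e3
  have e4 : ∑ x ∈ firstOut D v \ W, (if od D (firstOut D v) x = 1 then 1 else 0) ≤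
      (TT D v).card := by
    rw [← Finset.card_filter]
    apply Finset.card_le_card
    intro x hx
    rw [mem_filter, mem_sdiff] at hx
    unfold TT
    rw [mem_filter]
    exact ⟨hx.1.1, hx.2⟩
  omega

/-- the data of a counterexample -/
structure Bad (D : V → V → Prop) (d : ℕ) : Prop where
  ori : ∀ u v, D u v → ¬ D v u
  con : ∀ v, (secondOut D v).card < (firstOut D v).card
  min : ∀ x, d ≤ (firstOut D x).card
  few : ∀ v, (firstOut D v).card = d → arcsIn D (firstOut D v) + 3 ≤ 2 * d

variable {D : V → V → Prop} {d : ℕ}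

theorem Bad.inner (h : Bad D d) {v : V} (hv : (firstOut D v).card = d) :
    ∀ x ∈ firstOut D v, 1 ≤ od D (firstOut D v) x := by
  intro x hx
  have h1 := card_split D v x
  have h2 := Finset.card_le_card (sub_union h.ori (mem_firstOut.1 hx))
  have h3 := h.con v
  have h4 := h.min x
  omega

theorem Bad.str (h : Bad D d) {v u : V} (hv : (firstOut D v).card = d) (hu : u ∈ firstOut D v)
    (hu1 : od D (firstOut D v) u = 1) :
    (firstOut D u).card = d ∧ firstOut D u \ firstOut D v = secondOut D v ∧
      (secondOut D v).card + 1 = d := by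
  have hsub := sub_union h.ori (mem_firstOut.1 hu)
  have h1 := card_split D v u
  have h2 := Finset.card_le_card hsub
  have h3 := h.con v
  have h4 := h.min u
  refine ⟨by omega, Finset.eq_of_subset_of_card_le hsub (by omega), by omega⟩

theorem Bad.three (h : Bad D d) {v : V} (hv : (firstOut D v).card = d) : 3 ≤ (TT D v).card := by
  have h1 := count D v (h.inner hv) (W := ∅) (Finset.empty_subset _)
  have h2 := h.few v hv
  simp only [Finset.sum_empty, Finset.card_empty] at h1
  omega

theorem mem_TT {v x : V} : x ∈ TT D v ↔ x ∈ firstOut D v ∧ od D (firstOut D v) x = 1 := by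
  unfold TT; rw [mem_filter]

/-- Claim A. -/
theorem Bad.claimA (h : Bad D d) {v u w : V} (hv : (firstOut D v).card = d)
    (hu : u ∈ firstOut D v) (hu1 : od D (firstOut D v) u = 1) (hwu : w ∈ firstOut D u)
    (hwv : w ∈ firstOut D v) : w ∉ TT D v := by
  intro hw
  obtain ⟨hcu, heq, hS⟩ := h.str hv hu hu1
  obtain ⟨_, heq2, _⟩ := h.str hv hwv (mem_TT.1 hw).2
  have h1 := sum_lower hwu (h.inner hcu)
  have h2 := h.few u hcu
  have h3 : (secondOut D v).card ≤ od D (firstOut D u) w := by
    rw [od_eq]
    apply Finset.card_le_card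
    intro y hy
    have a1 := heq ▸ hy
    have a2 := heq2 ▸ hy
    rw [← heq] at hy
    have b1 := (mem_sdiff.1 hy).1
    have hy2 : y ∈ firstOut D w \ firstOut D v := by rw [heq2, ← heq]; exact hy
    exact mem_inter.2 ⟨(mem_sdiff.1 hy2).1, b1⟩
  omega

/-- Claim B. -/
theorem Bad.claimB (h : Bad D d) {v u w : V} (hv : (firstOut D v).card = d)
    (hu : u ∈ firstOut D v) (hu1 : od D (firstOut D v) u = 1) (hwu : w ∈ firstOut D u)
    (hwv : w ∈ firstOut D v) {p : V} (hpw : p ∈ firstOut D w) (hpv : p ∈ firstOut D v) :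
    p ∉ TT D v := by
  intro hp
  obtain ⟨hcu, heq, hS⟩ := h.str hv hu hu1
  obtain ⟨y, hy, hyw⟩ := Finset.exists_mem_ne (by have := h.three hcu; omega) w (s := TT D u)
  obtain ⟨hyu, hy1⟩ := mem_TT.1 hy
  have hone : firstOut D u ∩ firstOut D v = {w} := by
    rw [od_eq] at hu1
    obtain ⟨z, hz⟩ := Finset.card_eq_one.1 hu1
    have : w ∈ firstOut D u ∩ firstOut D v := mem_inter.2 ⟨hwu, hwv⟩
    rw [hz, mem_singleton] at this
    rw [hz, this]
  have hyv : y ∉ firstOut D v := by
    intro hyv
    have : y ∈ firstOut D u ∩ firstOut D v := mem_inter.2 ⟨hyu, hyv⟩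
    rw [hone, mem_singleton] at this
    exact hyw this
  obtain ⟨_, heqy, _⟩ := h.str hcu hyu hy1
  have hpu : p ∉ firstOut D u := by
    intro hpu
    have : p ∈ firstOut D u ∩ firstOut D v := mem_inter.2 ⟨hpu, hpv⟩
    rw [hone, mem_singleton] at this
    subst this
    exact h.ori _ _ (mem_firstOut.1 hpw) (mem_firstOut.1 hpw)
  have h1 : p ∈ secondOut D u :=
    sub_union h.ori (mem_firstOut.1 hwu) (mem_sdiff.2 ⟨hpw, hpu⟩)
  rw [← heqy] at h1
  have h2 : D y p := mem_firstOut.1 (mem_sdiff.1 h1).1
  obtain ⟨_, heqp, _⟩ := h.str hv hpv (mem_TT.1 hp).2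
  have h3 : y ∈ secondOut D v := by rw [← heq]; exact mem_sdiff.2 ⟨hyu, hyv⟩
  rw [← heqp] at h3
  exact h.ori _ _ h2 (mem_firstOut.1 (mem_sdiff.1 h3).1)

/-- Claim C. -/
theorem Bad.claimC (h : Bad D d) {v u w : V} (hv : (firstOut D v).card = d)
    (hu : u ∈ firstOut D v) (hu1 : od D (firstOut D v) u = 1) (hwu : w ∈ firstOut D u)
    (hwv : w ∈ firstOut D v) :
    od D (firstOut D v) w + 1 ≤ (TT D v).card ∧
      (TT D v).card + od D (firstOut D v) w + 1 ≤ d := by
  classical
  have h1 := count D v (h.inner hv) (W := {w}) (by simpa using hwv)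
  have h2 := h.few v hv
  simp only [Finset.sum_singleton, Finset.card_singleton] at h1
  refine ⟨by omega, ?_⟩
  have hA := h.claimA hv hu hu1 hwu hwv
  have hdis : Disjoint (TT D v) (firstOut D w ∩ firstOut D v) := by
    rw [Finset.disjoint_left]
    intro p hp hp2
    rw [mem_inter] at hp2
    exact h.claimB hv hu hu1 hwu hwv hp2.1 hp2.2 hp
  have hww : w ∉ TT D v ∪ (firstOut D w ∩ firstOut D v) := by
    rw [mem_union, mem_inter]
    rintro (h3 | h3)
    · exact hA h3
    · exact h.ori _ _ (mem_firstOut.1 h3.1) (mem_firstOut.1 h3.1)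
  have hsub : insert w (TT D v ∪ (firstOut D w ∩ firstOut D v)) ⊆ firstOut D v := by
    intro x hx
    rw [mem_insert, mem_union, mem_inter] at hx
    rcases hx with rfl | hx | hx
    · exact hwv
    · exact (mem_TT.1 hx).1
    · exact hx.2
  have h4 := Finset.card_le_card hsub
  rw [Finset.card_insert_of_notMem hww, Finset.card_union_of_disjoint hdis, ← od_eq] at h4
  omega

theorem Bad.descent (h : Bad D d) : ∀ k : ℕ, ∀ v u w : V, (firstOut D v).card = d →
    u ∈ firstOut D v → od D (firstOut D v) u = 1 → w ∈ firstOut D u → w ∈ firstOut D v →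
    od D (firstOut D v) w = k → False := by
  classical
  intro k
  induction k using Nat.strong_induction_on with
  | _ k ih =>
    intro v u w hv hu hu1 hwu hwv hk
    obtain ⟨hcu, heq, hS⟩ := h.str hv hu hu1
    obtain ⟨c1, c2⟩ := h.claimC hv hu hu1 hwu hwv
    have hβ : d ≤ od D (firstOut D u) w + k := by
      have h1 := card_split D v w
      have h2 := h.min w
      have h3 : (firstOut D w \ firstOut D v).card ≤ od D (firstOut D u) w := by
        rw [od_eq]
        apply Finset.card_le_card
        intro y hy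
        have hy2 : y ∈ secondOut D v := sub_union h.ori (mem_firstOut.1 hwv) hy
        rw [← heq] at hy2
        rw [mem_sdiff] at hy hy2
        exact mem_inter.2 ⟨hy.1, hy2.1⟩
      omega
    have hfu := h.few u hcu
    have h5 := count D u (h.inner hcu) (W := {w}) (by simpa using hwu)
    simp only [Finset.sum_singleton, Finset.card_singleton] at h5
    -- a vertex y of inner out-degree one in the out-neighbourhood of u with w → y
    obtain ⟨y, hyT, hyw⟩ : ∃ y, y ∈ TT D u ∧ y ∈ firstOut D w := by
      by_contra hno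
      simp only [not_exists, not_and] at hno
      have hdis : Disjoint (TT D u) (firstOut D w ∩ firstOut D u) := by
        rw [Finset.disjoint_left]
        intro p hp hp2
        exact hno p hp (mem_inter.1 hp2).1
      have hsub : TT D u ∪ (firstOut D w ∩ firstOut D u) ⊆ firstOut D u := by
        intro x hx
        rw [mem_union, mem_inter] at hx
        rcases hx with hx | hx
        · exact (mem_TT.1 hx).1
        · exact hx.2
      have h6 := Finset.card_le_card hsub
      rw [Finset.card_union_of_disjoint hdis, ← od_eq] at h6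
      omega
    obtain ⟨hyu, hy1⟩ := mem_TT.1 hyT
    obtain ⟨w', hw'⟩ : ∃ w', w' ∈ firstOut D y ∩ firstOut D u := by
      have : 0 < (firstOut D y ∩ firstOut D u).card := by rw [← od_eq]; omega
      exact Finset.card_pos.1 this
    rw [mem_inter] at hw'
    have hne : w ≠ w' := by
      rintro rfl
      exact h.ori _ _ (mem_firstOut.1 hyw) (mem_firstOut.1 hw'.1)
    have h7 := count D u (h.inner hcu) (W := {w, w'}) (by
      intro x hx
      rw [mem_insert, mem_singleton] at hx
      rcases hx with rfl | rfl
      · exact hwu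
      · exact hw'.2)
    rw [Finset.sum_pair hne, Finset.card_pair hne] at h7
    obtain ⟨c3, c4⟩ := h.claimC hcu hyu hy1 hw'.1 hw'.2
    have h8 := h.inner hcu w' hw'.2
    exact ih (od D (firstOut D u) w') (by omega) u y w' hcu hyu hy1 hw'.1 hw'.2 rfl

theorem main (D : V → V → Prop) [Nonempty V] (hD : ∀ u v, D u v → ¬ D v u)
    (h : ∀ v, (∀ x, (firstOut D v).card ≤ (firstOut D x).card) →
      arcsIn D (firstOut D v) ≤ 2 * (firstOut D v).card - 3) :
    ∃ v, (firstOut D v).card ≤ (secondOut D v).card := by
  classical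
  by_contra hcon
  simp only [not_exists, not_le] at hcon
  obtain ⟨v, _, hv⟩ := Finset.exists_min_image (univ : Finset V) (fun x => (firstOut D x).card)
    univ_nonempty
  have hv' : ∀ x, (firstOut D v).card ≤ (firstOut D x).card := fun x => hv x (mem_univ x)
  have hin : ∀ x ∈ firstOut D v, 1 ≤ od D (firstOut D v) x := by
    intro x hx
    have h1 := card_split D v x
    have h2 := Finset.card_le_card (sub_union hD (mem_firstOut.1 hx))
    have h3 := hcon v
    have h4 := hv' x
    omega
  have hpos : 0 < (firstOut D v).card := by have := hcon v; omega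
  have hge : 2 ≤ (firstOut D v).card := by
    by_contra hlt
    obtain ⟨x, hx⟩ := Finset.card_pos.1 hpos
    have h1 := sum_lower hx hin
    have h2 := h v hv'
    have h3 := hin x hx
    omega
  have hB : Bad D (firstOut D v).card := by
    refine ⟨hD, hcon, hv', fun x hx => ?_⟩
    have h1 := h x (fun z => by rw [hx]; exact hv' z)
    rw [hx] at h1
    omega
  have h3 := hB.three rfl
  obtain ⟨u, hu⟩ : ∃ u, u ∈ TT D v := by
    have : 0 < (TT D v).card := by omega
    exact Finset.card_pos.1 this
  obtain ⟨hu0, hu1⟩ := mem_TT.1 hu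
  obtain ⟨w, hw⟩ : ∃ w, w ∈ firstOut D u ∩ firstOut D v := by
    have : 0 < (firstOut D u ∩ firstOut D v).card := by rw [← od_eq]; omega
    exact Finset.card_pos.1 this
  rw [mem_inter] at hw
  exact hB.descent _ v u w rfl hu0 hu1 hw.1 hw.2 rfl


open Classical in
/-- The second neighbourhood conjecture for oriented graphs in which the out-neighbourhoods of the
vertices of minimum outdegree span few arcs. -/
theorem two_thm [Nonempty V] (D : V → V → Prop) (hD : ∀ u v, D u v → ¬ D v u) :
    ((∀ v, (∀ x, (firstOut D v).card ≤ (firstOut D x).card) →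
        arcsIn D (firstOut D v) ≤ 2 * (firstOut D v).card - 3) →
      ∃ v, (firstOut D v).card ≤ (secondOut D v).card) ∧
    ((∀ v, (∀ x, (firstOut D v).card ≤ (firstOut D x).card) →
        (firstOut D v).card ≠ 4 ∧
        ∀ x, D v x → (univ.filter fun y => D v y ∧ (D x y ∨ D y x)).card ≤ 3) →
      ∃ v, (firstOut D v).card ≤ (secondOut D v).card) ∧
    ((∀ v, (∀ x, (firstOut D v).card ≤ (firstOut D x).card) →
        ∀ x, D v x → (univ.filter fun y => D v y ∧ (D x y ∨ D y x)).card ≤ 2) →
      ∃ v, (firstOut D v).card ≤ (secondOut D v).card) := by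
  have key : ∀ c : ℕ, ∀ v, (∀ x, D v x →
      (univ.filter fun y => D v y ∧ (D x y ∨ D y x)).card ≤ c) →
      2 * arcsIn D (firstOut D v) ≤ c * (firstOut D v).card := by
    intro c v h
    apply two_arcs_eq D hD
    intro x hx T hT
    refine (Finset.card_le_card ?_).trans (h x (mem_firstOut.1 hx))
    intro y hy
    rw [mem_filter]
    exact ⟨mem_univ _, mem_firstOut.1 (hT y hy).1, (hT y hy).2⟩
  refine ⟨main D hD, fun h => main D hD fun v hv => ?_, fun h => main D hD fun v hv => ?_⟩
  · have h1 := key 3 v (h v hv).2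
    have h2 := two_arcs_le D hD (firstOut D v)
    have h3 := (h v hv).1
    generalize (firstOut D v).card = d at *
    rcases Nat.lt_or_ge d 6 with h4 | h4
    · interval_cases d <;> omega
    · omega
  · have h1 := key 2 v (h v hv)
    have h2 := two_arcs_le D hD (firstOut D v)
    generalize (firstOut D v).card = d at *
    rcases Nat.lt_or_ge d 3 with h4 | h4
    · interval_cases d <;> omega
    · omega

end Vale.Agent.P038P.Two
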